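import Vale.Agent.P265.K.Data

/-! Part K: arithmetic. PLAN. uniq: induction (a 0 = N 0, a (n+1) = N (n+1) - a n). sh s (κ + prev κ) j = sh s κ j + prev (sh s κ) j, so a = sh s κ + q is a solution of N = a + prev a; by uniq all solutions agree.
In arith: a from κ, the same a from κ0, a' likewise for N'. N j = 0 for j > d gives a j = 0 for j ≥ d. With d = n + 1 (d = 0 impossible as d = s + s' + 6), b j = if j < d then a (d - 1 - j) else 0 solves N' = b + prev b
(N' j = N (d - j) for j ≤ d and 0 otherwise), so a' = b. Hence a s ≥ 1, a (s+1) ≥ 2, a (s+2) = a' (s'+3) ≥ 2, a (s+3) ≥ 2, a (s+4) = a' (s'+1) ≥ 2 and the sum of N j over j ∈ {s, ..., s+5} is at least 17.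
cnt facts: Finset.card_eq_sum_card_fiberwise or a disjoint union of filters. -/

open Set Topology Filter

noncomputable section
namespace Vale.Agent.P265.L

theorem uniq {a a' : ℕ → ℕ} (h : ∀ j, a j + prev a j = a' j + prev a' j) : a = a' := by
  funext j
  induction j with
  | zero => exact h 0
  | succ n ih =>
    have := h (n + 1)
    simp only [prev] at this
    omega

theorem sh_prev (s : ℕ) (κ : ℕ → ℕ) (j : ℕ) :
    sh s (fun n => κ n + prev κ n) j = sh s κ j + prev (sh s κ) j := by
  cases j with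
  | zero => by_cases h : s = 0 <;> simp [sh, prev, h]
  | succ j =>
    simp only [sh, prev]
    rcases lt_trichotomy s (j + 1) with h | rfl | h
    · rw [if_pos h.le, if_pos h.le, if_pos (Nat.le_of_lt_succ h),
        show j + 1 - s = j - s + 1 by omega]
    · simp
    · rw [if_neg h.not_ge, if_neg h.not_ge, if_neg (by omega)]

theorem cnt_dual {Z : Type} {P : Finset Z} {ind ind' : Z → ℕ} {d : ℕ}
    (h : ∀ p ∈ P, ind p + ind' p = d) (j : ℕ) :
    cnt P ind' j = if j ≤ d then cnt P ind (d - j) else 0 := by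
  unfold cnt
  split_ifs with hj
  · exact congrArg _ (Finset.filter_congr fun p hp => by have := h p hp; omega)
  · exact Finset.card_eq_zero.2 (Finset.filter_eq_empty_iff.2 fun p hp => by have := h p hp; omega)

theorem arith {Z : Type} {P : Finset Z} {ind ind' : Z → ℕ} {s s' : ℕ}
    (h : ∀ p ∈ P, ind p + ind' p = s + s' + 6) {κ κ0 q q0 q' : ℕ → ℕ} (h1 : 2 ≤ κ 1)
    (h3 : 2 ≤ κ 3) (h0 : 1 ≤ κ0 0)
    (hq : ∀ j, cnt P ind j = sh s (fun n => κ n + prev κ n) j + q j + prev q j)
    (hq0 : ∀ j, cnt P ind j = sh s (fun n => κ0 n + prev κ0 n) j + q0 j + prev q0 j)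
    (hq' : ∀ j, cnt P ind' j = sh s' (fun n => κ n + prev κ n) j + q' j + prev q' j) :
    17 ≤ P.card := by
  have e : ∀ (t : ℕ) (k r : ℕ → ℕ) (j : ℕ), sh t (fun n => k n + prev k n) j + r j + prev r j =
      (fun n => sh t k n + r n) j + prev (fun n => sh t k n + r n) j := fun t k r j => by
    rw [sh_prev]
    cases j <;> simp only [prev] <;> omega
  have g : ∀ (t : ℕ) (k r : ℕ → ℕ) (i : ℕ), k i ≤ (fun n => sh t k n + r n) (t + i) :=
    fun t k r i => by simp [sh]
  obtain ⟨a, ha⟩ : ∃ a : ℕ → ℕ, a = fun n => sh s κ n + q n := ⟨_, rfl⟩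
  obtain ⟨a', ha'⟩ : ∃ a : ℕ → ℕ, a = fun n => sh s' κ n + q' n := ⟨_, rfl⟩
  have a0 : a = fun n => sh s κ0 n + q0 n := ha.trans (uniq fun j =>
    ((hq j).trans (e s κ q j)).symm.trans ((hq0 j).trans (e s κ0 q0 j)))
  have b0 : κ0 0 ≤ a (s + 0) := a0 ▸ g s κ0 q0 0
  have b1 : κ 1 ≤ a (s + 1) := ha ▸ g s κ q 1
  have b3 : κ 3 ≤ a (s + 3) := ha ▸ g s κ q 3
  have c1 : κ 1 ≤ a' (s' + 1) := ha' ▸ g s' κ q' 1
  have c3 : κ 3 ≤ a' (s' + 3) := ha' ▸ g s' κ q' 3
  replace hq : ∀ j, cnt P ind j = a j + prev a j := fun j => ha ▸ (hq j).trans (e s κ q j)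
  replace hq' : ∀ j, cnt P ind' j = a' j + prev a' j := fun j => ha' ▸ (hq' j).trans (e s' κ q' j)
  clear ha ha' a0 hq0 e g
  have z : ∀ j, s + s' + 6 ≤ j → a j = 0 := fun j hj => by
    have k := cnt_dual (ind := ind') (ind' := ind) (fun p hp => (add_comm _ _).trans (h p hp)) (j + 1)
    rw [if_neg (by omega), hq] at k
    simp only [prev] at k
    omega
  have d : a' = fun j => if j < s + s' + 6 then a (s + s' + 5 - j) else 0 := uniq fun j => by
    rw [← hq', cnt_dual h]
    cases j with
    | zero =>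
      rw [if_pos (Nat.zero_le _), hq, if_pos (by omega)]
      simp only [prev, Nat.sub_zero, z _ le_rfl, zero_add, add_zero]
    | succ j =>
      simp only [prev]
      rcases lt_trichotomy (j + 1) (s + s' + 6) with k | k | k
      · rw [if_pos k.le, if_pos k, if_pos (by omega), hq,
          show s + s' + 6 - (j + 1) = s + s' + 5 - (j + 1) + 1 by omega,
          show s + s' + 5 - j = s + s' + 5 - (j + 1) + 1 by omega, add_comm]
        rfl
      · rw [if_pos k.le, if_neg k.not_lt, if_pos (by omega), hq,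
          show s + s' + 6 - (j + 1) = 0 by omega, show s + s' + 5 - j = 0 by omega, add_comm]
        rfl
      · rw [if_neg k.not_ge, if_neg k.not_gt, if_neg (by omega)]
  subst d
  simp only [] at c1 c3
  rw [if_pos (by omega), show s + s' + 5 - (s' + 1) = s + 4 by omega] at c1
  rw [if_pos (by omega), show s + s' + 5 - (s' + 3) = s + 2 by omega] at c3
  have t : ∑ j ∈ Finset.Ico s (s + 6), cnt P ind j ≤ P.card := by
    rw [Finset.card_eq_sum_card_fiberwise (f := ind) (t := Finset.range (s + s' + 7))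
      fun p hp => by have := h p hp; simp only [Finset.coe_range, Set.mem_Iio]; omega]
    exact Finset.sum_le_sum_of_subset fun j hj => by
      rw [Finset.mem_Ico] at hj
      exact Finset.mem_range.2 (by omega)
  rw [Finset.sum_Ico_eq_sum_range, Nat.add_sub_cancel_left] at t
  simp only [Finset.sum_range_succ, Finset.sum_range_zero, hq, prev, add_zero] at t b0
  have : s + 4 = s + 3 + 1 := rfl
  omega

end Vale.Agent.P265.L
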