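import Vale.Agent.P265.K.Red

/-! Part K: the model sublevel set. PLAN. model: flow_red for the flow φ t (x, z) = (x, e.symm ((e z).1, exp (-t) • (e z).2)) and the function qq (e z) (strict: qq = C > 0 forces (e z).2 ≠ 0);
{∀ t, qq ≤ C} = {(e z).2 = 0} (let t → -∞) which is homeomorphic to S × (Fin s → ℝ); ht_homeo (κ = 1), ht_pi. exists_level: F and qq ∘ e are bounded on the compact set univ ×ˢ closedBall 0 R, take C above both bounds and the values on P. -/

open Set Topology Filter

noncomputable section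
namespace Vale.Agent.P265.L

variable {S V : Type} [MetricSpace S] [CompactSpace S] [NormedAddCommGroup V] [NormedSpace ℝ V]
  [FiniteDimensional ℝ V] {s s' : ℕ}

theorem kmodel_qq (c : ℝ) (w : Sp s s') :
    qq ((w.1, c • w.2) : Sp s s') = c ^ 2 * ∑ i, w.2 i ^ 2 - ∑ i, w.1 i ^ 2 := by
  simp only [qq, Pi.smul_apply, smul_eq_mul, mul_pow, Finset.mul_sum]

theorem kmodel_cont : Continuous (qq : Sp s s' → ℝ) := by
  unfold qq
  fun_prop

theorem kmodel_nn {n : ℕ} (u : Fin n → ℝ) : 0 ≤ ∑ i, u i ^ 2 :=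
  Finset.sum_nonneg fun _ _ => sq_nonneg _

theorem kmodel_key {C : ℝ} (hC : 0 < C) (w : Sp s s') :
    (∀ t, qq ((w.1, Real.exp (-t) • w.2) : Sp s s') ≤ C) ↔ w.2 = 0 := by
  have h1 := kmodel_nn w.1
  have h2 := kmodel_nn w.2
  simp only [kmodel_qq]
  constructor
  · intro h
    have h0 : ∑ i, w.2 i ^ 2 = 0 := by
      by_contra hne
      have hp : 0 < ∑ i, w.2 i ^ 2 := lt_of_le_of_ne h2 (Ne.symm hne)
      generalize ∑ i, w.2 i ^ 2 = a at *
      generalize ∑ i, w.1 i ^ 2 = b at *
      obtain ⟨u, hu⟩ : ∃ u, u = (C + b) / a := ⟨_, rfl⟩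
      have hu0 : 0 ≤ u := by rw [hu]; positivity
      have hu1 : u * a = C + b := by rw [hu]; field_simp
      have h3 := h (-u)
      rw [neg_neg] at h3
      have h4 : u + 1 ≤ Real.exp u := Real.add_one_le_exp u
      have h5 : u + 1 ≤ Real.exp u ^ 2 := by nlinarith
      nlinarith [mul_le_mul_of_nonneg_right h5 hp.le]
    funext i
    have := (Finset.sum_eq_zero_iff_of_nonneg fun i _ => sq_nonneg (w.2 i)).1 h0 i
      (Finset.mem_univ i)
    exact pow_eq_zero_iff (two_ne_zero) |>.1 this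
  · intro h t
    rw [h]
    simp only [Pi.zero_apply, ne_eq, OfNat.ofNat_ne_zero, not_false_eq_true, zero_pow,
      Finset.sum_const_zero, mul_zero]
    linarith

/-- The model flow. -/
def kmodel_flow (S : Type) [TopologicalSpace S] (e : V ≃L[ℝ] Sp s s') : Flow ℝ (S × V) where
  toFun t x := (x.1, e.symm ((e x.2).1, Real.exp (-t) • (e x.2).2))
  cont' := by
    have := e.continuous
    have := e.symm.continuous
    unfold Function.uncurry
    fun_prop
  map_add' t₁ t₂ x := by
    simp only [ContinuousLinearEquiv.apply_symm_apply, smul_smul, ← Real.exp_add, neg_add]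
  map_zero' x := by simp

omit [CompactSpace S] [FiniteDimensional ℝ V] in
theorem kmodel_app (e : V ≃L[ℝ] Sp s s') (t : ℝ) (x : S × V) :
    e (kmodel_flow S e t x).2 = ((e x.2).1, Real.exp (-t) • (e x.2).2) :=
  e.apply_symm_apply _

/-- The invariant set of the model flow. -/
def kmodel_homeo (S : Type) [MetricSpace S] (e : V ≃L[ℝ] Sp s s') {C : ℝ} (hC : 0 < C) :
    {x : S × V // ∀ t, qq (e (kmodel_flow S e t x).2) ≤ C} ≃ₜ S × (Fin s → ℝ) where
  toFun x := (x.1.1, (e x.1.2).1)
  invFun y := ⟨(y.1, e.symm (y.2, 0)), by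
    simp only [kmodel_app]
    exact (kmodel_key hC _).2 (by simp)⟩
  left_inv x := by
    have h := x.2
    simp only [kmodel_app] at h
    have h' := (kmodel_key hC _).1 h
    refine Subtype.ext (Prod.ext rfl ?_)
    change e.symm ((e x.1.2).1, 0) = x.1.2
    rw [← h']
    exact e.symm_apply_apply _
  right_inv y := by simp
  continuous_toFun := by
    have := e.continuous
    fun_prop
  continuous_invFun := by
    have := e.symm.continuous
    fun_prop

theorem model (e : V ≃L[ℝ] Sp s s') {C : ℝ} (hC : 0 < C) {τ : S → Circle} (hτ : Continuous τ)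
    (h : ℕ → ℕ) : HT {x : S × V // qq (e x.2) ≤ C} (fun x => τ x.1.1) h ↔
      ∃ b, HT S τ b ∧ h = sh s b := by
  have hF : Continuous fun x : S × V => qq (e x.2) :=
    kmodel_cont.comp (e.continuous.comp continuous_snd)
  have : ProperSpace V := FiniteDimensional.proper_real V
  have h1 := flow_red (kmodel_flow S e) hF (C := C) ?_ ?_ (τ := fun x => τ x.1)
    (hτ.comp continuous_fst) h
  · rw [h1, ← ht_pi hτ s h]
    exact ht_homeo (kmodel_homeo S e hC) (hτ.comp continuous_fst) (κ := fun _ => 1)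
      continuous_const (fun x => by simp [kmodel_homeo]) h
  · intro y t ht
    have h2 := kmodel_nn (e y.2).2
    have h3 : Real.exp (-t) ^ 2 ≤ 1 :=
      pow_le_one₀ (Real.exp_pos _).le (Real.exp_le_one_iff.2 (by linarith))
    rw [kmodel_app, kmodel_qq, qq]
    nlinarith
  · intro y t hy ht
    have h2 := kmodel_nn (e y.2).1
    have h3 : Real.exp (-t) ^ 2 < 1 :=
      pow_lt_one₀ (Real.exp_pos _).le (Real.exp_lt_one_iff.2 (by linarith)) two_ne_zero
    rw [kmodel_app, kmodel_qq]
    rw [qq] at hy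
    nlinarith

theorem exists_level (e : V ≃L[ℝ] Sp s s') {F : S × V → ℝ} (hF : Continuous F) {R : ℝ}
    (hR : ∀ x z, R ≤ ‖z‖ → F (x, z) = qq (e z)) (P : Finset (S × V)) :
    ∃ C, 0 < C ∧ (∀ p ∈ P, F p < C) ∧ ∀ x, F x ≤ C ↔ qq (e x.2) ≤ C := by
  have : ProperSpace V := FiniteDimensional.proper_real V
  have hG : Continuous fun x : S × V => qq (e x.2) :=
    kmodel_cont.comp (e.continuous.comp continuous_snd)
  have hK : IsCompact ((univ : Set S) ×ˢ Metric.closedBall (0 : V) R) :=
    isCompact_univ.prod (isCompact_closedBall 0 R)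
  obtain ⟨A, hA⟩ := hK.bddAbove_image hF.continuousOn
  obtain ⟨B, hB⟩ := hK.bddAbove_image hG.continuousOn
  obtain ⟨D, hD⟩ := (P.image F).bddAbove
  refine ⟨max (max A B) (max D 0) + 1, by positivity, fun p hp => ?_, fun x => ?_⟩
  · have h1 : F p ≤ D := hD (by simpa using ⟨p.1, p.2, hp, rfl⟩)
    have h2 : D ≤ max (max A B) (max D 0) := (le_max_left _ _).trans (le_max_right _ _)
    linarith
  · rcases le_total R ‖x.2‖ with h | h
    · rw [← hR x.1 x.2 h]
    · have hx : x ∈ (univ : Set S) ×ˢ Metric.closedBall (0 : V) R :=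
        ⟨mem_univ _, mem_closedBall_zero_iff.2 h⟩
      have h1 : F x ≤ A := hA ⟨x, hx, rfl⟩
      have h2 : qq (e x.2) ≤ B := hB ⟨x, hx, rfl⟩
      have h3 : A ≤ max (max A B) (max D 0) := (le_max_left _ _).trans (le_max_left _ _)
      have h4 : B ≤ max (max A B) (max D 0) := (le_max_right _ _).trans (le_max_left _ _)
      exact iff_of_true (by linarith) (by linarith)

end Vale.Agent.P265.L
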