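import Vale.Agent.P265.K.Filt
import Vale.Agent.P265.K.Model
import Vale.Agent.P265.K.Arith

/-! Part K: assembly. -/

open Set Topology Filter

noncomputable section
namespace Vale.Agent.P265.L

variable {S V : Type} [MetricSpace S] [CompactSpace S] [NormedAddCommGroup V] [NormedSpace ℝ V]
  [FiniteDimensional ℝ V] {s s' d : ℕ}

theorem PG.ineq {F : S × V → ℝ} {P : Finset (S × V)} (D : PG (S × V) F P d)
    (e : V ≃L[ℝ] Sp s s') {R : ℝ} (hR : ∀ x z, R ≤ ‖z‖ → F (x, z) = qq (e z))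
    {τ : S → Circle} (hτ : Continuous τ) {b : ℕ → ℕ} (hb : HT S τ b) :
    ∃ q : ℕ → ℕ, ∀ j, cnt P D.ind j = sh s b j + q j + prev q j := by
  have : ProperSpace V := FiniteDimensional.proper_real V
  obtain ⟨C, hC, hP, hE⟩ := exists_level e D.cF hR P
  obtain ⟨h, q, hh, hq⟩ := D.morse (τ := fun x => τ x.1) (by fun_prop) hP
  have h2 : HT {x : S × V // qq (e x.2) ≤ C} (fun x => τ x.1.1) h := by
    have : (fun x : S × V => F x ≤ C) = fun x => qq (e x.2) ≤ C := funext fun x => propext (hE x)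
    have key : ∀ p p' : S × V → Prop, p = p' → HT {x // p x} (fun x => τ x.1.1) h →
        HT {x // p' x} (fun x => τ x.1.1) h := by
      rintro p p' rfl h
      exact h
    exact key _ _ this hh
  obtain ⟨b', hb', rfl⟩ := (model e hC hτ h).1 h2
  obtain rfl := hb.unique hb'
  exact ⟨q, hq⟩

theorem PG.card {F : S × V → ℝ} {P : Finset (S × V)} (D : PG (S × V) F P (s + s' + 6))
    (e : V ≃L[ℝ] Sp s s') {R : ℝ} (hR : ∀ x z, R ≤ ‖z‖ → F (x, z) = qq (e z))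
    {τ : S → Circle} (hτ : Continuous τ) {κ κ0 : ℕ → ℕ} (h1 : 2 ≤ κ 1) (h3 : 2 ≤ κ 3)
    (h0 : 1 ≤ κ0 0) (hb : HT S τ fun n => κ n + prev κ n)
    (hb0 : HT S 1 fun n => κ0 n + prev κ0 n) : 17 ≤ P.card := by
  obtain ⟨D', hD, -⟩ := D.rev
  obtain ⟨q, hq⟩ := D.ineq e hR hτ hb
  obtain ⟨q0, hq0⟩ := D.ineq e hR continuous_const hb0
  obtain ⟨q', hq'⟩ := D'.ineq (e.trans (ContinuousLinearEquiv.prodComm ℝ _ _)) (R := R)
    (fun x z hz => by simp [hR x z hz, qq]) hτ hb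
  rw [hD] at hq'
  exact arith D.dim h1 h3 h0 hq hq0 hq'

end Vale.Agent.P265.L
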