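import Vale.Agent.P265.K.Data

/-! Part K: properties of cells. PLAN. tendsto: φ t (c u) = c (exp t • u) → c 0 at atBot. le: antitone + limit. inj: scale u, v into the neighbourhood where π (c u) = u.
mem: sup of F on the orbit is ≤ F p (antitone and the orbit returns to {F < F p + ε}), some φ t x ∈ N, so φ t x = c (π _), x = c (exp (-t) • π _).
open: codRestrict is continuous, injective; open map: at u0 choose t with exp t • u0 in the interior of {π (c u) = u} and c (exp t • u0) ∈ N; for y ∈ A near c u0, φ t y ∈ N, the second alternative is excluded by hA, so y = c (exp (-t) • π (φ t y)) and exp (-t) • π (φ t y) is near u0 (isOpenMap_iff_nhds_le). -/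

open Set Topology Filter

noncomputable section
namespace Vale.Agent.P265.L

variable {Z : Type} [TopologicalSpace Z] {φ : Flow ℝ Z} {F : Z → ℝ} {p : Z} {n : ℕ}
  {c : (Fin n → ℝ) → Z}

theorem kcell_lim (u : Fin n → ℝ) : Tendsto (fun t => Real.exp t • u) atBot (𝓝 0) := by
  simpa using Real.tendsto_exp_atBot.smul_const u

theorem kcell_anti (anti : ∀ y t, 0 ≤ t → F (φ t y) ≤ F y) (y : Z) {s t : ℝ} (h : s ≤ t) :
    F (φ t y) ≤ F (φ s y) := by
  have := anti (φ s y) (t - s) (sub_nonneg.2 h)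
  rwa [← φ.map_add, sub_add_cancel] at this

theorem kcell_back (h : IsCell φ F p c) {x : Z} {t : ℝ} {u : Fin n → ℝ} (e : φ t x = c u) :
    c (Real.exp (-t) • u) = x := by
  rw [h.2.2.1, ← e, ← φ.map_add, neg_add_cancel, φ.map_zero_apply]

theorem IsCell.tendsto (h : IsCell φ F p c) (u : Fin n → ℝ) :
    Tendsto (fun t => φ t (c u)) atBot (𝓝 p) := by
  have := (h.1.tendsto 0).comp (kcell_lim u)
  rw [h.2.1] at this
  exact this.congr fun t => h.2.2.1 t u

theorem IsCell.le (h : IsCell φ F p c) (hF : Continuous F) (anti : ∀ y t, 0 ≤ t → F (φ t y) ≤ F y)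
    (u : Fin n → ℝ) (t : ℝ) : F (φ t (c u)) ≤ F p :=
  ge_of_tendsto ((hF.tendsto p).comp (h.tendsto u))
    ((eventually_le_atBot t).mono fun _ hs => kcell_anti anti _ hs)

theorem IsCell.inj (h : IsCell φ F p c) : Function.Injective c := by
  intro u v huv
  obtain ⟨-, -, hφ, N, π, -, -, -, hπ, -⟩ := h
  obtain ⟨t, h1, h2⟩ := (((kcell_lim u).eventually hπ).and ((kcell_lim v).eventually hπ)).exists
  rw [hφ, huv, ← hφ, h2] at h1
  exact (smul_right_injective _ (Real.exp_pos t).ne' h1).symm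

theorem IsCell.disj [T2Space Z] (h : IsCell φ F p c) {q : Z} {m : ℕ} {c' : (Fin m → ℝ) → Z}
    (h' : IsCell φ F q c') {u : Fin n → ℝ} {v : Fin m → ℝ} (huv : c u = c' v) : p = q :=
  tendsto_nhds_unique (h.tendsto u) (huv ▸ h'.tendsto v)

theorem IsCell.mem (h : IsCell φ F p c) (hF : Continuous F) (anti : ∀ y t, 0 ≤ t → F (φ t y) ≤ F y)
    {x : Z} (hx : ∀ N ∈ 𝓝 p, ∀ T : ℝ, ∃ t ≤ T, φ t x ∈ N) : x ∈ range c := by
  have hle : ∀ t, F (φ t x) ≤ F p := fun t => le_of_forall_gt fun a ha => by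
    obtain ⟨s, hs, hN⟩ := hx {y | F y < a} ((hF.tendsto p).eventually (gt_mem_nhds ha)) t
    exact (kcell_anti anti x hs).trans_lt hN
  obtain ⟨N, π, hN, hp, -, -, hy⟩ := h.2.2.2
  obtain ⟨t, -, ht⟩ := hx N (hN.mem_nhds hp) 0
  rcases hy _ ht with e | ⟨s, hs⟩
  · exact ⟨_, kcell_back h e⟩
  · rw [← φ.map_add] at hs
    exact absurd (hle _) (not_le.2 hs)

theorem IsCell.isOpenEmbedding (h : IsCell φ F p c) {A : Set Z} (hc : ∀ u, c u ∈ A)
    (hA : ∀ y ∈ A, ∀ t, F (φ t y) ≤ F p) : IsOpenEmbedding (A.codRestrict c hc) := by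
  refine IsOpenEmbedding.of_continuous_injective_isOpenMap (h.1.codRestrict hc)
    (fun u v e => h.inj (congrArg Subtype.val e)) (isOpenMap_iff_nhds_le.2 fun u => ?_)
  obtain ⟨N, π, hN, hp, hπ, hu, hy⟩ := h.2.2.2
  obtain ⟨t, h1, h2⟩ :=
    (((kcell_lim u).eventually hu).and ((h.tendsto u).eventually (hN.mem_nhds hp))).exists
  have c1 : Continuous fun y : A => φ t y.1 := φ.continuous continuous_const continuous_subtype_val
  have c2 : ContinuousAt (fun y : A => Real.exp (-t) • π (φ t y.1)) (A.codRestrict c hc u) :=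
    (ContinuousAt.comp (f := fun y : A => φ t y.1) (x := A.codRestrict c hc u)
      (hπ.continuousAt (hN.mem_nhds h2)) c1.continuousAt).const_smul (Real.exp (-t))
  have e : Real.exp (-t) • π (φ t (c u)) = u := by
    rw [← h.2.2.1, h1, smul_smul, ← Real.exp_add, neg_add_cancel, Real.exp_zero, one_smul]
  intro s hs
  have hs' : A.codRestrict c hc ⁻¹' s ∈ 𝓝 (Real.exp (-t) • π (φ t (c u))) := by
    rw [e]
    exact hs
  filter_upwards [c2 hs', c1.continuousAt (x := A.codRestrict c hc u) (hN.mem_nhds h2)]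
    with y hy1 hy2
  rcases hy _ hy2 with e' | ⟨r, hr⟩
  · have e2 : A.codRestrict c hc (Real.exp (-t) • π (φ t y.1)) = y := Subtype.ext (kcell_back h e')
    rw [← e2]
    exact hy1
  · rw [← φ.map_add] at hr
    exact absurd (hA y.1 y.2 _) (not_le.2 hr)

end Vale.Agent.P265.L
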