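import Vale.Agent.P265.T.Defs

/-! P265 part K: topological Morse theory, definitions. DO NOT EDIT (ask helper98). -/

open Set Topology Filter

noncomputable section
namespace Vale.Agent.P265.L

/-- Split coordinates. -/
abbrev Sp (s s' : ℕ) : Type := (Fin s → ℝ) × (Fin s' → ℝ)

/-- The standard quadratic form of index `s`. -/
def qq {s s' : ℕ} (w : Sp s s') : ℝ := ∑ i, w.2 i ^ 2 - ∑ i, w.1 i ^ 2

/-- The standard hyperbolic flow. -/
def hyp {s s' : ℕ} (t : ℝ) (w : Sp s s') : Sp s s' := (Real.exp t • w.1, Real.exp (-t) • w.2)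

/-- The flow `φ` is the standard hyperbolic flow in a chart at `p`. -/
def LocLin {Z : Type} [TopologicalSpace Z] (φ : Flow ℝ Z) (p : Z) (s s' : ℕ) : Prop :=
  ∃ (h : OpenPartialHomeomorph Z (Sp s s')) (δ : ℝ), 0 < δ ∧ p ∈ h.source ∧ h p = 0 ∧
    Metric.ball 0 δ ⊆ h.target ∧ ∀ w ∈ Metric.ball (0 : Sp s s') δ, ∀ t,
      hyp t w ∈ Metric.ball (0 : Sp s s') δ → φ t (h.symm w) = h.symm (hyp t w)

/-- A gradient like flow for `F` with rest points `P` in dimension `d`. -/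
structure PG (Z : Type) [TopologicalSpace Z] (F : Z → ℝ) (P : Finset Z) (d : ℕ) where
  φ : Flow ℝ Z
  ind : Z → ℕ
  ind' : Z → ℕ
  cF : Continuous F
  dim : ∀ p ∈ P, ind p + ind' p = d
  fix : ∀ p ∈ P, ∀ t, φ t p = p
  dec : ∀ y ∉ P, ∀ t, 0 < t → F (φ t y) < F y
  far : ∃ (K : Set Z) (c : ℝ), IsCompact K ∧ 0 < c ∧
    ∀ y t, 0 ≤ t → (∀ r ∈ Icc 0 t, φ r y ∉ K) → F (φ t y) ≤ F y - c * t
  lin : ∀ p ∈ P, LocLin φ p (ind p) (ind' p)

/-- The unstable manifold of `p` is a cell of dimension `n`. -/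
def IsCell {Z : Type} [TopologicalSpace Z] (φ : Flow ℝ Z) (F : Z → ℝ) (p : Z) {n : ℕ}
    (c : (Fin n → ℝ) → Z) : Prop :=
  Continuous c ∧ c 0 = p ∧ (∀ t u, c (Real.exp t • u) = φ t (c u)) ∧
    ∃ (N : Set Z) (π : Z → Fin n → ℝ), IsOpen N ∧ p ∈ N ∧ ContinuousOn π N ∧
      (∀ᶠ u in 𝓝 0, π (c u) = u) ∧ ∀ y ∈ N, y = c (π y) ∨ ∃ t, F p < F (φ t y)

/-- The number of points of `P` with index `j`. -/
def cnt {Z : Type} (P : Finset Z) (ind : Z → ℕ) (j : ℕ) : ℕ := (P.filter fun p => ind p = j).card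

end Vale.Agent.P265.L
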