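import Vale.Agent.P265.K.Rev

/-! Part K: unstable cells. PLAN. h, δ from lin. T u = log (1 + 2 ‖u‖ / δ), so ‖exp (-T u) • u‖ < δ / 2; c u = φ (T u) (h.symm (exp (-T u) • u, 0)), continuous (Flow.continuous, h.continuousOn_symm).
Independence: φ T (h.symm (exp (-T) • u, 0)) does not depend on T as long as ‖exp (-T) • u‖ < δ (apply the LocLin identity with t = T - T'); this gives c u = h.symm (u, 0) for ‖u‖ < δ and the equivariance.
For 0 < ‖v‖ < δ: F p < F (h.symm (0, v)) (the point flows to p as t → ∞, F is antitone along the flow, continuity gives ≤; strict: if h.symm (0,v) ∉ P use dec at time 1; it is not in P because it is not fixed, h.symm injective on target).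
Tube lemma (IsCompact.eventually_forall_of_forall_eventually on the sphere ‖v‖ = δ / 2): there is 0 < η < δ / 2 with F p < F (h.symm (u, v)) for ‖u‖ < η, ‖v‖ = δ / 2.
N = h.source ∩ h ⁻¹' ball 0 η, π y = (h y).1. For y ∈ N with (h y).2 = v ≠ 0 take t = log (2 ‖v‖ / δ) < 0. -/

open Set Topology Filter

noncomputable section
namespace Vale.Agent.P265.L

section
variable {Z : Type} [TopologicalSpace Z] {s s' : ℕ} {φ : Flow ℝ Z}
  {h : OpenPartialHomeomorph Z (Sp s s')} {δ : ℝ}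

theorem klin_mem {u : Fin s → ℝ} {v : Fin s' → ℝ} :
    ((u, v) : Sp s s') ∈ Metric.ball (0 : Sp s s') δ ↔ ‖u‖ < δ ∧ ‖v‖ < δ := by
  rw [mem_ball_zero_iff, Prod.norm_def, max_lt_iff]

theorem klin_ind (hδ : 0 < δ) (H : ∀ w ∈ Metric.ball (0 : Sp s s') δ, ∀ t,
      hyp t w ∈ Metric.ball (0 : Sp s s') δ → φ t (h.symm w) = h.symm (hyp t w))
    (u : Fin s → ℝ) {T T' : ℝ} (h1 : ‖Real.exp (-T) • u‖ < δ) (h2 : ‖Real.exp (-T') • u‖ < δ) :
    φ T (h.symm (Real.exp (-T) • u, 0)) = φ T' (h.symm (Real.exp (-T') • u, 0)) := by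
  have e : hyp (T - T') ((Real.exp (-T) • u, 0) : Sp s s') = (Real.exp (-T') • u, 0) := by
    simp only [hyp, smul_smul, ← Real.exp_add, smul_zero]
    congr 3
    ring
  have h3 := H (Real.exp (-T) • u, 0) (klin_mem.2 ⟨h1, by simpa using hδ⟩) (T - T')
    (by rw [e]; exact klin_mem.2 ⟨h2, by simpa using hδ⟩)
  rw [e] at h3
  rw [← h3, ← φ.map_add]
  congr 1
  ring

theorem klin_small (hδ : 0 < δ) (u : Fin s → ℝ) :
    ‖Real.exp (-Real.log (1 + 2 * ‖u‖ / δ)) • u‖ < δ := by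
  have h1 : 0 < 1 + 2 * ‖u‖ / δ := by positivity
  rw [Real.exp_neg, Real.exp_log h1, norm_smul, Real.norm_eq_abs, abs_of_pos (inv_pos.2 h1),
    inv_mul_lt_iff₀ h1]
  have : (1 + 2 * ‖u‖ / δ) * δ = δ + 2 * ‖u‖ := by field_simp
  rw [this]
  linarith [norm_nonneg u]

theorem klin_cell (hδ : 0 < δ) (hb : Metric.ball 0 δ ⊆ h.target)
    (H : ∀ w ∈ Metric.ball (0 : Sp s s') δ, ∀ t,
      hyp t w ∈ Metric.ball (0 : Sp s s') δ → φ t (h.symm w) = h.symm (hyp t w)) :
    ∃ c : (Fin s → ℝ) → Z, Continuous c ∧ (∀ t u, c (Real.exp t • u) = φ t (c u)) ∧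
      ∀ u, ‖u‖ < δ → c u = h.symm (u, 0) := by
  let T : (Fin s → ℝ) → ℝ := fun u => Real.log (1 + 2 * ‖u‖ / δ)
  have cT : Continuous T := Continuous.log (by fun_prop) fun u => by positivity
  refine ⟨fun u => φ (T u) (h.symm (Real.exp (-T u) • u, 0)), ?_, fun t u => ?_, fun u hu => ?_⟩
  · refine φ.continuous cT (h.continuousOn_symm.comp_continuous (by fun_prop) fun u => ?_)
    exact hb (klin_mem.2 ⟨klin_small hδ u, by simpa using hδ⟩)
  · have e : Real.exp (-(t + T u)) • Real.exp t • u = Real.exp (-T u) • u := by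
      rw [smul_smul, ← Real.exp_add]
      congr 2
      ring
    have h1 := klin_ind hδ H (Real.exp t • u) (T := T (Real.exp t • u)) (T' := t + T u)
      (klin_small hδ _) (by rw [e]; exact klin_small hδ u)
    show φ _ _ = φ t (φ _ _)
    rw [h1, e, φ.map_add]
  · have h1 := klin_ind hδ H u (T := T u) (T' := 0) (klin_small hδ u) (by simpa using hu)
    show φ _ _ = _
    rw [h1]
    simp

end

theorem klin_lt {Z : Type} [TopologicalSpace Z] {F : Z → ℝ} {P : Finset Z} {d s s' : ℕ}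
    (D : PG Z F P d) {h : OpenPartialHomeomorph Z (Sp s s')} {δ : ℝ} (hδ : 0 < δ)
    (hb : Metric.ball 0 δ ⊆ h.target) (H : ∀ w ∈ Metric.ball (0 : Sp s s') δ, ∀ t,
      hyp t w ∈ Metric.ball (0 : Sp s s') δ → D.φ t (h.symm w) = h.symm (hyp t w))
    {v : Fin s' → ℝ} (hv0 : v ≠ 0) (hv : ‖v‖ < δ) : F (h.symm 0) < F (h.symm (0, v)) := by
  have hm : ∀ t, 0 ≤ t → ((0, Real.exp (-t) • v) : Sp s s') ∈ Metric.ball (0 : Sp s s') δ := by
    intro t ht
    refine klin_mem.2 ⟨by simpa using hδ, lt_of_le_of_lt ?_ hv⟩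
    rw [norm_smul, Real.norm_eq_abs, abs_of_pos (Real.exp_pos _)]
    exact mul_le_of_le_one_left (norm_nonneg _) (Real.exp_le_one_iff.2 (by linarith))
  have h0 : ((0, v) : Sp s s') ∈ Metric.ball (0 : Sp s s') δ :=
    klin_mem.2 ⟨by simpa using hδ, hv⟩
  have e : ∀ t, 0 ≤ t → D.φ t (h.symm (0, v)) = h.symm (0, Real.exp (-t) • v) := by
    intro t ht
    have e1 : hyp t ((0, v) : Sp s s') = (0, Real.exp (-t) • v) := by simp [hyp]
    rw [H _ h0 t (e1 ▸ hm t ht), e1]
  have hP : h.symm (0, v) ∉ P := by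
    intro hP
    have h1 := D.fix _ hP 1
    rw [e 1 zero_le_one] at h1
    have h2 := h.symm.injOn (hb (hm 1 zero_le_one)) (hb h0) h1
    have h3 : (Real.exp (-1) - 1) • v = 0 := by
      rw [sub_smul, one_smul, sub_eq_zero]
      exact congrArg Prod.snd h2
    rcases smul_eq_zero.1 h3 with h4 | h4
    · have : Real.exp (-1) < 1 := Real.exp_lt_one_iff.2 (by norm_num)
      linarith
    · exact hv0 h4
  refine lt_of_le_of_lt ?_ (D.dec _ hP 1 one_pos)
  have l1 : Tendsto (fun t : ℝ => ((0, Real.exp (-t) • v) : Sp s s')) atTop (𝓝 0) := by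
    have := Real.tendsto_exp_neg_atTop_nhds_zero.smul_const v
    rw [zero_smul] at this
    exact tendsto_const_nhds.prodMk_nhds this
  have l2 := (D.cF.continuousAt.comp
    (h.continuousAt_symm (hb (Metric.mem_ball_self hδ)))).tendsto.comp l1
  refine le_of_tendsto l2 ?_
  filter_upwards [eventually_ge_atTop (1 : ℝ)] with t ht
  show F (h.symm (0, Real.exp (-t) • v)) ≤ _
  rw [← e t (by linarith), show t = (t - 1) + 1 by ring, D.φ.map_add]
  exact D.anti _ (by linarith)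

theorem PG.cell {Z : Type} [TopologicalSpace Z] {F : Z → ℝ} {P : Finset Z} {d : ℕ}
    (D : PG Z F P d) {p : Z} (hp : p ∈ P) :
    ∃ c : (Fin (D.ind p) → ℝ) → Z, IsCell D.φ F p c := by
  obtain ⟨h, δ, hδ, hps, hp0, hb, H⟩ := D.lin p hp
  obtain ⟨c, cc, ce, cs⟩ := klin_cell hδ hb H
  have e0 : h.symm 0 = p := by rw [← hp0, h.left_inv hps]
  have tube : ∀ᶠ u in 𝓝 (0 : Fin (D.ind p) → ℝ),
      ∀ v ∈ Metric.sphere (0 : Fin (D.ind' p) → ℝ) (δ / 2), F p < F (h.symm (u, v)) := by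
    refine (isCompact_sphere _ _).eventually_forall_of_forall_eventually fun v hv => ?_
    rw [mem_sphere_zero_iff_norm] at hv
    have h1 : ‖v‖ < δ := by linarith
    have h2 : v ≠ 0 := by
      rintro rfl
      rw [norm_zero] at hv
      linarith
    have h3 := klin_lt D hδ hb H h2 h1
    rw [e0] at h3
    exact continuousAt_const.eventually_lt (D.cF.continuousAt.comp
      (h.continuousAt_symm (hb (klin_mem.2 ⟨by simpa using hδ, h1⟩)))) h3
  obtain ⟨η, hη, hη'⟩ := Metric.eventually_nhds_iff_ball.1 tube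
  refine ⟨c, cc, ?_, ce, h.source ∩ h ⁻¹' Metric.ball 0 (min η (δ / 2)), fun y => (h y).1,
    h.isOpen_inter_preimage Metric.isOpen_ball, ⟨hps, ?_⟩,
    continuous_fst.comp_continuousOn (h.continuousOn.mono inter_subset_left), ?_, ?_⟩
  · rw [cs 0 (by simpa using hδ)]
    exact e0
  · rw [mem_preimage, hp0]
    exact Metric.mem_ball_self (lt_min hη (by linarith))
  · filter_upwards [Metric.ball_mem_nhds 0 hδ] with u hu
    rw [mem_ball_zero_iff] at hu
    rw [cs u hu, h.right_inv (hb (klin_mem.2 ⟨hu, by simpa using hδ⟩))]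
  · rintro y ⟨hy, hy'⟩
    have e1 : h.symm ((h y).1, (h y).2) = y := h.left_inv hy
    obtain ⟨h1, h2⟩ := (klin_mem (u := (h y).1) (v := (h y).2)).1 hy'
    show y = c (h y).1 ∨ _
    generalize (h y).1 = u at *
    generalize (h y).2 = v at *
    rw [lt_min_iff] at h1 h2
    by_cases hv : v = 0
    · left
      rw [cs u (by linarith), ← hv, e1]
    · right
      have hn : 0 < ‖v‖ := norm_pos_iff.2 hv
      have hq : 0 < 2 * ‖v‖ / δ := by positivity
      have hq1 : 2 * ‖v‖ / δ ≤ 1 := by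
        rw [div_le_one hδ]
        linarith
      have a1 : ‖Real.exp (Real.log (2 * ‖v‖ / δ)) • u‖ ≤ ‖u‖ := by
        rw [Real.exp_log hq, norm_smul, Real.norm_eq_abs, abs_of_pos hq]
        exact mul_le_of_le_one_left (norm_nonneg _) hq1
      have a2 : ‖Real.exp (-Real.log (2 * ‖v‖ / δ)) • v‖ = δ / 2 := by
        rw [Real.exp_neg, Real.exp_log hq, norm_smul, Real.norm_eq_abs, abs_of_pos (inv_pos.2 hq)]
        field_simp
      refine ⟨Real.log (2 * ‖v‖ / δ), ?_⟩
      rw [← e1, H (u, v) (klin_mem.2 ⟨by linarith, by linarith⟩) _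
        (klin_mem.2 ⟨by linarith, by linarith⟩)]
      exact hη' _ (mem_ball_zero_iff.2 (a1.trans_lt h1.1)) _ (mem_sphere_zero_iff_norm.2 a2)

end Vale.Agent.P265.L
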