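import Vale.Agent.P265.T.Api2
import Vale.Agent.P265.K.Data

/-! Part K: pushing a sublevel set along a flow. PLAN. W = {F ≤ C} closed in Z (IsClosed.locallyCompactSpace), A = {∀ t, F (φ t x) ≤ C} closed, L = {F = C}. For y ∈ L and t < 0, C < F (φ t y).
j : L × Ici 0 → W, (y, t) ↦ φ t y is an open embedding with range the complement of A: for x ∈ W ∖ A the function t ↦ F (φ t x) is antitone, continuous and takes the value C at exactly one time θ x ≤ 0 (intermediate value);
θ is continuous on the open set of x whose orbit meets both sides (θ x < b iff F (φ b x) < C, a < θ x iff C < F (φ a x)); use IsOpenEmbedding.of_continuous_injective_isOpenMap or build a Homeomorph onto the open subset W ∖ A and compose with Subtype.val.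
HT (L × Ici 0) (τ ∘ j) 0: lift2 for h (r, (y, t)) = τ (φ (r * t) y) / τ y, ht_homeo (Homeomorph.refl _), ht_half. Then ht_open0 with i = Set.inclusion. -/

open Set Topology Filter

noncomputable section
namespace Vale.Agent.P265.L

theorem kred_neg {Z : Type} [TopologicalSpace Z] (φ : Flow ℝ Z) {F : Z → ℝ} {C : ℝ}
    (anti : ∀ y t, 0 ≤ t → F (φ t y) ≤ F y) (strict : ∀ y t, F y = C → 0 < t → F (φ t y) < C)
    {y : Z} (hy : F y = C) {t : ℝ} (ht : t < 0) : C < F (φ t y) := by
  have e : φ (-t) (φ t y) = y := by rw [← φ.map_add, neg_add_cancel, φ.map_zero_apply]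
  have h1 := anti (φ t y) (-t) (by linarith)
  rw [e, hy] at h1
  refine h1.lt_of_ne fun h2 => ?_
  have h3 := strict (φ t y) (-t) h2.symm (by linarith)
  rw [e, hy] at h3
  exact lt_irrefl _ h3

theorem kred_emb {Z : Type} [MetricSpace Z] (φ : Flow ℝ Z) {F : Z → ℝ}
    (hF : Continuous F) {C : ℝ} (anti : ∀ y t, 0 ≤ t → F (φ t y) ≤ F y)
    (strict : ∀ y t, F y = C → 0 < t → F (φ t y) < C) :
    IsEmbedding fun p : {x // F x = C} × Ici (0 : ℝ) => φ p.2.1 p.1.1 := by
  have hc : Continuous fun p : {x // F x = C} × Ici (0 : ℝ) => φ p.2.1 p.1.1 :=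
    φ.continuous (by fun_prop) (by fun_prop)
  have hsub : ∀ (s t : ℝ) y, φ (-s) (φ t y) = φ (t - s) y := fun s t y => by
    rw [← φ.map_add, neg_add_eq_sub]
  refine ⟨isInducing_iff_nhds.2 fun p => le_antisymm (hc.tendsto p).le_comap ?_, fun p q e => ?_⟩
  · set l := comap (fun p : {x // F x = C} × Ici (0 : ℝ) => φ p.2.1 p.1.1) (𝓝 (φ p.2.1 p.1.1))
    have hx : Tendsto (fun p : {x // F x = C} × Ici (0 : ℝ) => φ p.2.1 p.1.1) l
        (𝓝 (φ p.2.1 p.1.1)) := tendsto_comap
    have hs : ∀ s : ℝ, Tendsto (fun q : {x // F x = C} × Ici (0 : ℝ) => F (φ (q.2.1 - s) q.1.1)) l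
        (𝓝 (F (φ (p.2.1 - s) p.1.1))) := fun s => by
      simp only [← hsub]
      exact ((hF.comp (φ.continuous (t := fun _ : Z => -s) (f := id) continuous_const
        continuous_id)).tendsto _).comp hx
    have ht : Tendsto (fun q : {x // F x = C} × Ici (0 : ℝ) => q.2.1) l (𝓝 p.2.1) := by
      refine tendsto_order.2 ⟨fun a ha => ?_, fun b hb => ?_⟩
      · filter_upwards [(hs a).eventually (gt_mem_nhds (strict _ _ p.1.2 (sub_pos.2 ha)))] with q hq
        by_contra h
        rcases (not_lt.1 h).lt_or_eq with h1 | h1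
        · exact lt_asymm hq (kred_neg φ anti strict q.1.2 (sub_neg.2 h1))
        · rw [h1, sub_self, φ.map_zero_apply, q.1.2] at hq
          exact lt_irrefl _ hq
      · filter_upwards [(hs b).eventually
          (lt_mem_nhds (kred_neg φ anti strict p.1.2 (sub_neg.2 hb)))] with q hq
        by_contra h
        have h1 := anti q.1.1 _ (sub_nonneg.2 (not_lt.1 h))
        rw [q.1.2] at h1
        exact absurd hq (not_lt.2 h1)
    have hy : Tendsto (fun q : {x // F x = C} × Ici (0 : ℝ) => q.1.1) l (𝓝 p.1.1) := by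
      have h1 : Continuous fun z : ℝ × Z => φ (-z.1) z.2 := φ.continuous (by fun_prop) (by fun_prop)
      have h2 := (h1.tendsto (p.2.1, φ p.2.1 p.1.1)).comp (ht.prodMk_nhds hx)
      simpa only [Function.comp_def, hsub, sub_self, φ.map_zero_apply] using h2
    exact (tendsto_subtype_rng.2 hy).prodMk_nhds (tendsto_subtype_rng.2 ht)
  · have e' : φ p.2.1 p.1.1 = φ q.2.1 q.1.1 := e
    have h1 : φ (p.2.1 - q.2.1) p.1.1 = q.1.1 := by
      rw [← hsub, e', hsub, sub_self, φ.map_zero_apply]
    have h2 : p.2.1 = q.2.1 := by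
      rcases lt_trichotomy p.2.1 q.2.1 with h | h | h
      · have := kred_neg φ anti strict p.1.2 (sub_neg.2 h)
        rw [h1, q.1.2] at this
        exact absurd this (lt_irrefl _)
      · exact h
      · have := strict _ _ p.1.2 (sub_pos.2 h)
        rw [h1, q.1.2] at this
        exact absurd this (lt_irrefl _)
    rw [h2, sub_self, φ.map_zero_apply] at h1
    exact Prod.ext (Subtype.ext h1) (Subtype.ext h2)

theorem flow_red {Z : Type} [MetricSpace Z] [LocallyCompactSpace Z] (φ : Flow ℝ Z) {F : Z → ℝ}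
    (hF : Continuous F) {C : ℝ} (anti : ∀ y t, 0 ≤ t → F (φ t y) ≤ F y)
    (strict : ∀ y t, F y = C → 0 < t → F (φ t y) < C) {τ : Z → Circle} (hτ : Continuous τ)
    (f : ℕ → ℕ) :
    HT {x // F x ≤ C} (fun x => τ x.1) f ↔ HT {x // ∀ t, F (φ t x) ≤ C} (fun x => τ x.1) f := by
  have hW : IsClosed {x | F x ≤ C} := isClosed_le hF continuous_const
  have hL : IsClosed {x | F x = C} := isClosed_eq hF continuous_const
  have hA : IsClosed {x | ∀ t, F (φ t x) ≤ C} := by
    rw [ofPred_forall]
    exact isClosed_iInter fun t =>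
      isClosed_le (hF.comp (φ.continuous continuous_const continuous_id)) continuous_const
  have : LocallyCompactSpace {x // F x ≤ C} := hW.locallyCompactSpace
  have : LocallyCompactSpace {x // F x = C} := hL.locallyCompactSpace
  let j : {x // F x = C} × Ici (0 : ℝ) → {x // F x ≤ C} := fun p =>
    ⟨φ p.2.1 p.1.1, (anti _ _ p.2.2).trans p.1.2.le⟩
  let i : {x // ∀ t, F (φ t x) ≤ C} → {x // F x ≤ C} := fun x =>
    ⟨x.1, by simpa only [φ.map_zero_apply] using x.2 0⟩
  have hi : IsClosedEmbedding i :=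
    IsClosedEmbedding.of_comp (g := Subtype.val) IsEmbedding.subtypeVal
      hA.isClosedEmbedding_subtypeVal
  have hc : range i = (range j)ᶜ := by
    ext x
    constructor
    · rintro ⟨a, rfl⟩ ⟨p, e⟩
      have e' : φ p.2.1 p.1.1 = a.1 := congrArg Subtype.val e
      have h1 := a.2 (-1 - p.2.1)
      rw [← e', ← φ.map_add, sub_add_cancel] at h1
      exact absurd (kred_neg φ anti strict p.1.2 (by norm_num : (-1 : ℝ) < 0)) (not_lt.2 h1)
    · intro h
      refine ⟨⟨x.1, fun t => ?_⟩, rfl⟩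
      by_contra h1
      have h2 := not_le.1 h1
      have h3 : t ≤ 0 := not_lt.1 fun h4 => h1 ((anti _ _ h4.le).trans x.2)
      have h4 : ContinuousOn (fun s : ℝ => F (φ s x.1)) (Icc t 0) :=
        (hF.comp (φ.continuous continuous_id continuous_const)).continuousOn
      obtain ⟨s, hs, e⟩ := intermediate_value_Icc' h3 h4
        (show C ∈ Icc (F (φ 0 x.1)) (F (φ t x.1)) from ⟨by rw [φ.map_zero_apply]; exact x.2, h2.le⟩)
      refine h ⟨(⟨φ s x.1, e⟩, ⟨-s, neg_nonneg.2 hs.2⟩), Subtype.ext ?_⟩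
      show φ (-s) (φ s x.1) = x.1
      rw [← φ.map_add, neg_add_cancel, φ.map_zero_apply]
  have hj : IsOpenEmbedding j := by
    refine ⟨(kred_emb φ hF anti strict).codRestrict {x | F x ≤ C} _, ?_⟩
    rw [← isClosed_compl_iff, ← hc]
    exact hi.isClosed_range
  have hcont : Continuous fun z : unitInterval × ({x // F x = C} × Ici (0 : ℝ)) =>
      τ (φ (z.1.1 * z.2.2.1) z.2.1.1) / τ z.2.1.1 :=
    (hτ.comp (φ.continuous (by fun_prop) (by fun_prop))).div' (by fun_prop)
  obtain ⟨κ, hκ, e⟩ := lift2 ⟨_, hcont⟩ (fun x => by simp [φ.map_zero_apply])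
  refine ht_open0 (τ := fun x : {x // F x ≤ C} => τ x.1) (by fun_prop) hj hi hc ?_ f
  refine (ht_homeo (Homeomorph.refl _) (τ' := fun p : {x // F x = C} × Ici (0 : ℝ) => τ p.1.1)
    (by fun_prop) hκ (fun p => ?_) 0).2 (ht_half fun y : {x // F x = C} => τ y.1)
  rw [← e]
  simp [j]

end Vale.Agent.P265.L
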