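import Vale.Agent.P265.T.Api2
import Vale.Agent.P265.K.Cell
import Vale.Agent.P265.K.Lin
import Vale.Agent.P265.K.Red

/-! Part K: the strong Morse inequalities. PLAN. filt: induction on the cardinality of Q (Finset.induction_on_max_image or strong induction with Finset.exists_max_image). Empty: ht_empty.
Step: p ∈ Q with F p maximal, A = ⋃ q ∈ Q, range (c q), A' the same for Q.erase p. j = codRestrict (c p) is an open embedding (IsCell.isOpenEmbedding, IsCell.le), its complement is the range of the inclusion of A' (IsCell.disj),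
so A' is closed in A, hence in Z; ht_les with ht_cell; q = q' + r (prev is additive; cnt (insert) = Pi.single + cnt). morse: choose cells (PG.cell); {∀ t, F (φ t x) ≤ C} = ⋃ p ∈ P, range (c p) by PG.conv, IsCell.mem, IsCell.le;
it is closed; flow_red (strict: a point with F = C is not in P); transport along Homeomorph.setCongr with ht_homeo (κ = 1) or rewrite the set. -/

open Set Topology Filter

noncomputable section
namespace Vale.Agent.P265.L

variable {Z : Type} [MetricSpace Z] [LocallyCompactSpace Z] {F : Z → ℝ} {τ : Z → Circle}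

theorem kfilt_prev (q r : ℕ → ℕ) (j : ℕ) : prev (q + r) j = prev q j + prev r j := by
  cases j <;> rfl

theorem kfilt_cnt {Z : Type} [DecidableEq Z] {p : Z} {s : Finset Z} (hp : p ∉ s) (ind : Z → ℕ)
    (j : ℕ) : cnt (insert p s) ind j = (Pi.single (ind p) 1 : ℕ → ℕ) j + cnt s ind j := by
  unfold cnt
  rw [Finset.filter_insert, Pi.single_apply]
  by_cases h : ind p = j
  · rw [if_pos h, if_pos h.symm, Finset.card_insert_of_notMem
      fun h' => hp (Finset.mem_of_mem_filter _ h'), add_comm]
  · rw [if_neg h, if_neg (Ne.symm h), zero_add]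

omit [LocallyCompactSpace Z] in
theorem kfilt_congr {S S' : Set Z} (e : S = S') {h : ℕ → ℕ} (hh : HT S (fun x => τ x.1) h) :
    HT S' (fun x => τ x.1) h := by
  subst e
  exact hh

theorem filt {φ : Flow ℝ Z} (hF : Continuous F) (anti : ∀ y t, 0 ≤ t → F (φ t y) ≤ F y)
    (hτ : Continuous τ) {ind : Z → ℕ} (c : ∀ p, (Fin (ind p) → ℝ) → Z) (Q : Finset Z)
    (hc : ∀ p ∈ Q, IsCell φ F p (c p)) (hQ : IsClosed (⋃ p ∈ Q, range (c p))) :
    ∃ h q : ℕ → ℕ, HT (⋃ p ∈ Q, range (c p) : Set Z) (fun x => τ x.1) h ∧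
      ∀ j, cnt Q ind j = h j + q j + prev q j := by
  classical
  induction Q using Finset.induction_on_max_value F with
  | empty =>
    have : IsEmpty (⋃ p ∈ (∅ : Finset Z), range (c p) : Set Z) := ⟨fun x => by simpa using x.2⟩
    exact ⟨0, 0, ht_empty _, fun j => by cases j <;> rfl⟩
  | insert p s hp hmax ih =>
    have hp0 := Finset.mem_insert_self p s
    have hsub : (⋃ q ∈ s, range (c q)) ⊆ ⋃ q ∈ insert p s, range (c q) :=
      biUnion_subset_biUnion_left (Finset.coe_subset.2 (Finset.subset_insert p s))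
    have hcp : ∀ u, c p u ∈ ⋃ q ∈ insert p s, range (c q) := fun u =>
      mem_iUnion₂.2 ⟨p, hp0, u, rfl⟩
    have hj := (hc p hp0).isOpenEmbedding hcp fun y hy t => by
      obtain ⟨q, hq, u, rfl⟩ := mem_iUnion₂.1 hy
      refine ((hc q hq).le hF anti u t).trans ?_
      rcases Finset.mem_insert.1 hq with e | hq'
      · exact e ▸ le_rfl
      · exact hmax q hq'
    have hr : range (inclusion hsub) = (range (codRestrict (c p) _ hcp))ᶜ := by
      ext ⟨y, hy⟩
      constructor
      · rintro ⟨⟨y', hy'⟩, e⟩ ⟨u, e'⟩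
        obtain ⟨q, hq, v, hv⟩ := mem_iUnion₂.1 hy'
        have e1 : y' = y := congrArg Subtype.val e
        have e2 : c p u = y := congrArg Subtype.val e'
        have e3 := (hc p hp0).disj (hc q (Finset.mem_insert_of_mem hq))
          (e2.trans (hv.trans e1).symm)
        exact hp (e3 ▸ hq)
      · intro h
        obtain ⟨q, hq, v, hv⟩ := mem_iUnion₂.1 hy
        rcases Finset.mem_insert.1 hq with e | hq'
        · subst e
          exact absurd ⟨v, Subtype.ext hv⟩ h
        · exact ⟨⟨y, mem_iUnion₂.2 ⟨q, hq', v, hv⟩⟩, rfl⟩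
    have hcl : IsClosed (range (inclusion hsub)) := by
      rw [hr]; exact hj.isOpen_range.isClosed_compl
    have hcl' : IsClosed (⋃ q ∈ s, range (c q)) := by
      have h := hQ.isClosedEmbedding_subtypeVal.isClosedMap _ hcl
      rwa [← range_comp, show Subtype.val ∘ inclusion hsub = Subtype.val from rfl,
        Subtype.range_coe] at h
    obtain ⟨g, q, hg, hq⟩ := ih (fun q hq => hc q (Finset.mem_insert_of_mem hq)) hcl'
    have := hQ.locallyCompactSpace
    have hτ' : Continuous fun x : (⋃ q ∈ insert p s, range (c q) : Set Z) => τ x.1 :=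
      hτ.comp continuous_subtype_val
    obtain ⟨h, r, hh, hr'⟩ := ht_les hτ' hj ⟨IsEmbedding.inclusion hsub, hcl⟩ hr
      (ht_cell (hτ'.comp hj.continuous)) hg
    refine ⟨h, q + r, hh, fun j => ?_⟩
    have h1 := (hr' j).1
    have h2 := hq j
    rw [kfilt_cnt hp, kfilt_prev, Pi.add_apply]
    omega

theorem PG.morse {P : Finset Z} {d : ℕ} (D : PG Z F P d) (hτ : Continuous τ) {C : ℝ}
    (hC : ∀ p ∈ P, F p < C) :
    ∃ h q : ℕ → ℕ, HT {x // F x ≤ C} (fun x => τ x.1) h ∧
      ∀ j, cnt P D.ind j = h j + q j + prev q j := by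
  have ex : ∀ p, ∃ c : (Fin (D.ind p) → ℝ) → Z, p ∈ P → IsCell D.φ F p c := fun p => by
    by_cases hp : p ∈ P
    · exact (D.cell hp).imp fun _ h _ => h
    · exact ⟨fun _ => p, fun h => absurd h hp⟩
  choose c hc using ex
  have anti : ∀ y t, 0 ≤ t → F (D.φ t y) ≤ F y := fun y _ ht => D.anti y ht
  have e : (⋃ p ∈ P, range (c p)) = {x | ∀ t, F (D.φ t x) ≤ C} := by
    ext x
    constructor
    · intro hx t
      obtain ⟨p, hp, u, rfl⟩ := mem_iUnion₂.1 hx
      exact ((hc p hp).le D.cF anti u t).trans (hC p hp).le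
    · intro hx
      obtain ⟨p, hp, h⟩ := D.conv hx
      exact mem_iUnion₂.2 ⟨p, hp, (hc p hp).mem D.cF anti h⟩
  have hcl : IsClosed (⋃ p ∈ P, range (c p)) := by
    rw [e, ofPred_forall]
    exact isClosed_iInter fun t =>
      isClosed_le (D.cF.comp (D.φ.continuous continuous_const continuous_id)) continuous_const
  obtain ⟨h, q, hh, hq⟩ := filt D.cF anti hτ c P hc hcl
  refine ⟨h, q, (flow_red D.φ D.cF anti (fun y t hy ht => ?_) hτ h).2 (kfilt_congr e hh), hq⟩
  exact hy ▸ D.dec y (fun h' => (hC y h').ne hy) t ht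

end Vale.Agent.P265.L
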