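import Vale.Agent.P265.K.Data

/-! Part K: elementary facts on gradient like flows. PLAN. rev: the flow is D.φ.reverse (Flow.reverse, φ.reverse t = φ (-t)); P is invariant and so is its complement (fix, Flow.map_add);
dec and far: apply the given ones at the point φ (-t) y. lin: compose the chart with Homeomorph.prodComm (OpenPartialHomeomorph.transHomeomorph or trans with toOpenPartialHomeomorph); hyp (-t) is the swap of hyp t; the sup norm is invariant under swap.
conv: t ↦ F (φ t x) is antitone and bounded by C. With K, c from far: if for some T the orbit avoids K for all t ≤ T then far at φ (T - n) x gives F (φ (T - n) x) ≥ F (φ T x) + c n, contradiction.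
So frequently atBot φ t x ∈ K; take a cluster point y ∈ K (IsCompact.exists_mapClusterPt for the filter atBot ⊓ 𝓟 {t | φ t x ∈ K}). F (φ t x) tends to its supremum m at atBot (tendsto_atBot_ciSup), so F (φ r y) = m for every r (cluster point of φ (r + t) x, continuity), hence y ∈ P by dec. -/

open Set Topology Filter

noncomputable section
namespace Vale.Agent.P265.L

variable {Z : Type} [TopologicalSpace Z] {F : Z → ℝ} {P : Finset Z} {d : ℕ}

theorem krev_back (φ : Flow ℝ Z) (t : ℝ) (y : Z) : φ t (φ (-t) y) = y := by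
  rw [← φ.map_add, add_neg_cancel, φ.map_zero_apply]

theorem krev_lin {φ : Flow ℝ Z} {p : Z} {s s' : ℕ} (h : LocLin φ p s s') :
    LocLin φ.reverse p s' s := by
  obtain ⟨h, δ, h0, h1, h2, h3, h4⟩ := h
  have sw : ∀ w : Sp s' s, w ∈ Metric.ball 0 δ → w.swap ∈ Metric.ball 0 δ := fun w hw => by
    rw [mem_ball_zero_iff, Prod.norm_def] at hw ⊢
    rwa [max_comm]
  have e : ∀ t (w : Sp s' s), hyp (-t) w.swap = (hyp t w).swap := fun t w => by simp [hyp]
  refine ⟨h.transHomeomorph (Homeomorph.prodComm _ _), δ, h0, h1, ?_, fun w hw => h3 (sw w hw),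
    fun w hw t ht => ?_⟩
  · change (h p).swap = 0
    rw [h2]
    rfl
  · exact (h4 _ (sw w hw) (-t) (e t w ▸ sw _ ht)).trans (congrArg h.symm (e t w))

theorem PG.anti (D : PG Z F P d) (y : Z) {t : ℝ} (ht : 0 ≤ t) : F (D.φ t y) ≤ F y := by
  by_cases hy : y ∈ P
  · rw [D.fix y hy]
  · rcases ht.eq_or_lt with rfl | h
    · rw [D.φ.map_zero_apply]
    · exact (D.dec y hy t h).le

theorem PG.rev (D : PG Z F P d) :
    ∃ D' : PG Z (fun y => -F y) P d, D'.ind = D.ind' ∧ D'.ind' = D.ind := by
  refine ⟨⟨D.φ.reverse, D.ind', D.ind, D.cF.neg, fun p hp => (add_comm _ _).trans (D.dim p hp),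
    fun p hp t => D.fix p hp _, fun y hy t ht => ?_, ?_, fun p hp => krev_lin (D.lin p hp)⟩, rfl, rfl⟩
  · have := D.dec (D.φ (-t) y) (fun h => hy (by rw [← krev_back D.φ t y, D.fix _ h]; exact h)) t ht
    rw [krev_back] at this
    exact neg_lt_neg this
  · obtain ⟨K, c, hK, hc, h⟩ := D.far
    refine ⟨K, c, hK, hc, fun y t ht H => ?_⟩
    have := h (D.φ (-t) y) t ht fun r hr => by
      have := H (t - r) ⟨by linarith [hr.2], by linarith [hr.1]⟩
      rwa [Flow.reverse_apply, neg_sub, sub_eq_add_neg, D.φ.map_add] at this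
    rw [krev_back] at this
    rw [Flow.reverse_apply]
    linarith

theorem PG.conv [T2Space Z] (D : PG Z F P d) {C : ℝ} {x : Z} (hx : ∀ t, F (D.φ t x) ≤ C) :
    ∃ p ∈ P, ∀ N ∈ 𝓝 p, ∀ T : ℝ, ∃ t ≤ T, D.φ t x ∈ N := by
  obtain ⟨K, c, hK, hc, h⟩ := D.far
  have fr : ∃ᶠ t in atBot, D.φ t x ∈ K := by
    rw [frequently_atBot]
    by_contra! H
    obtain ⟨T, hT⟩ := H
    set s := (C - F (D.φ T x)) / c + 1 with hs
    have s0 : 0 ≤ s := add_nonneg (div_nonneg (sub_nonneg.2 (hx T)) hc.le) zero_le_one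
    have := h (D.φ (T - s) x) s s0 fun r hr => by
      rw [← D.φ.map_add]
      exact hT _ (by linarith [hr.2])
    rw [← D.φ.map_add, add_sub_cancel, hs, mul_add, mul_div_cancel₀ _ hc.ne'] at this
    linarith [hx (T - s)]
  obtain ⟨y, -, hy⟩ := hK.exists_mapClusterPt_of_frequently fr
  have an : Antitone fun t => F (D.φ t x) := fun a b hab => by
    have := D.anti (D.φ a x) (sub_nonneg.2 hab)
    rwa [← D.φ.map_add, sub_add_cancel] at this
  have tm := tendsto_atBot_ciSup an ⟨C, forall_mem_range.2 hx⟩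
  have e : ∀ r, F (D.φ r y) = ⨆ t, F (D.φ t x) := fun r =>
    eq_of_nhds_neBot ((hy.continuousAt_comp
      (D.cF.comp (D.φ.continuous_toFun r)).continuousAt).clusterPt.mono
      ((tm.comp (tendsto_atBot_add_const_left _ r tendsto_id)).congr fun t =>
        congrArg F (D.φ.map_add r t x)))
  refine ⟨y, by_contra fun hP => ?_, fun N hN T => frequently_atBot.1 (hy.frequently hN) T⟩
  have := D.dec y hP 1 one_pos
  rw [e 1, ← e 0, D.φ.map_zero_apply] at this
  exact lt_irrefl _ this

end Vale.Agent.P265.L
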